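import Mathlib
import Vale.Agent.P074.Defs
import Vale.Agent.P074.Upper

namespace Vale.Agent.Results.P074.A_NotHalf

open Vale.Agent.P074

/-- In every dimension `d ≥ 2` the exponent `1/2` is not admissible; in fact every admissible
exponent is at most `1/3`. -/
theorem result : ∀ d : ℕ, 2 ≤ d →
    ¬ Admissible d (1 / 2) ∧ ∀ α : ℝ, Admissible d α → α ≤ 1 / 3 := by
  intro d hd
  refine ⟨fun h => ?_, fun α h => h.le_third hd⟩
  have := h.le_third hd
  norm_num at this

end Vale.Agent.Results.P074.A_NotHalf
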