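import Mathlib
import Vale.Agent.P074.Defs
import Vale.Agent.P074.Upper
import Vale.Agent.P074.Final

namespace Vale.Agent.Results.P074.A_Third

open Vale.Agent.P074

/-- In every dimension `d ≥ 2` the supremum of the admissible exponents equals `1/3` and it is
attained: `1/3` is the greatest admissible exponent. In particular `1/2` is not admissible. -/
theorem result : ∀ d : ℕ, 2 ≤ d →
    IsGreatest {α : ℝ | Admissible d α} (1 / 3) ∧
    sSup {α : ℝ | Admissible d α} = 1 / 3 ∧
    ¬ Admissible d (1 / 2) := by
  intro d hd
  have h : IsGreatest {α : ℝ | Admissible d α} (1 / 3) :=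
    ⟨admissible_third (by omega), fun α h => Admissible.le_third hd h⟩
  refine ⟨h, h.csSup_eq, fun h2 => ?_⟩
  have := Admissible.le_third hd h2
  norm_num at this

end Vale.Agent.Results.P074.A_Third
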