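import Mathlib
import Vale.Agent.P074.Defs
import Vale.Agent.P074.Upper
import Vale.Agent.P074.Final
import Vale.Agent.P074.Exist

open MeasureTheory Set
open scoped ENNReal NNReal

namespace Vale.Agent.Results.P074.B_ExactExponent

section
variable {X : Type} [NormedAddCommGroup X] [MeasurableSpace X]

/-- `T` is a quadratic optimal transport map from `ρ` to `μ`: a Borel map with `T_# ρ = μ` of
least cost `∫ |x - T x|^2 dρ` among all Borel maps pushing `ρ` to `μ`. -/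
def OptimalMap (ρ μ : Measure X) (T : X → X) : Prop :=
  Measurable T ∧ ρ.map T = μ ∧
    ∀ S : X → X, Measurable S → ρ.map S = μ →
      ∫⁻ x, ‖x - T x‖ₑ ^ 2 ∂ρ ≤ ∫⁻ x, ‖x - S x‖ₑ ^ 2 ∂ρ

/-- The Wasserstein distance `W_2`: the infimum over the couplings of `μ` and `ν`. -/
noncomputable def Wass (μ ν : Measure X) : ℝ≥0∞ :=
  ⨅ (π : Measure (X × X)) (_ : π.fst = μ ∧ π.snd = ν), (∫⁻ z, ‖z.1 - z.2‖ₑ ^ 2 ∂π) ^ (1 / 2 : ℝ)

/-- For the source `ρ` and all targets carried by `Y` the optimal maps satisfy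
`‖T_μ - T_ν‖_{L²(ρ)} ≤ C W_2(μ,ν)^α`. -/
def StableWith (ρ : Measure X) (Y : Set X) (α : ℝ) (C : ℝ≥0) : Prop :=
  ∀ μ ν : Measure X, IsProbabilityMeasure μ → IsProbabilityMeasure ν → μ Yᶜ = 0 → ν Yᶜ = 0 →
    ∀ T S : X → X, OptimalMap ρ μ T → OptimalMap ρ ν S →
      eLpNorm (fun x => T x - S x) 2 ρ ≤ C * Wass μ ν ^ α

end

/-- The uniform probability measure `|K|⁻¹ 1_K dx`. -/
noncomputable def uniform {d : ℕ} (K : Set (EuclideanSpace ℝ (Fin d))) :
    Measure (EuclideanSpace ℝ (Fin d)) :=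
  (volume K)⁻¹ • volume.restrict K

/-- For every `d ≥ 2`: (1) for every compact convex `K` with nonempty interior and every compactly
supported probability measure `μ` an optimal map exists and is unique up to null sets; (2) the set
of admissible exponents is exactly `(0, 1/3]`; (3) for `K = [-1,1]^d` and the closed unit ball `Y`
no exponent above `1/3` works. -/
theorem result (d : ℕ) (hd : 2 ≤ d) :
    (∀ K : Set (EuclideanSpace ℝ (Fin d)), IsCompact K → Convex ℝ K → (interior K).Nonempty →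
      ∀ Y : Set (EuclideanSpace ℝ (Fin d)), IsCompact Y →
      ∀ μ : Measure (EuclideanSpace ℝ (Fin d)), IsProbabilityMeasure μ → μ Yᶜ = 0 →
        (∃ T, OptimalMap (uniform K) μ T) ∧
        ∀ T S, OptimalMap (uniform K) μ T → OptimalMap (uniform K) μ S →
          ∀ᵐ x ∂(uniform K), T x = S x) ∧
    {α : ℝ | 0 < α ∧ α ≤ 1 ∧
      ∀ K : Set (EuclideanSpace ℝ (Fin d)), IsCompact K → Convex ℝ K → (interior K).Nonempty →
      ∀ Y : Set (EuclideanSpace ℝ (Fin d)), IsCompact Y → Y.Nonempty →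
        ∃ C : ℝ≥0, StableWith (uniform K) Y α C} = Ioc 0 (1 / 3) ∧
    (∀ α : ℝ, 1 / 3 < α →
      ¬ ∃ C : ℝ≥0, StableWith (uniform {x : EuclideanSpace ℝ (Fin d) | ∀ i, -1 ≤ x i ∧ x i ≤ 1})
        (Metric.closedBall 0 1) α C) := by
  refine ⟨?_, ?_, ?_⟩
  · intro K hK hc hi Y hY μ hμ hμY
    refine ⟨Vale.Agent.P074.exists_optMap (by omega) hK hc hi hY ⟨hμ, hμY⟩, ?_⟩
    intro T S hT hS
    exact Vale.Agent.P074.optMap_unique (by omega) hK hc hi hY ⟨hμ, hμY⟩ hT hS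
  · ext α
    constructor
    · rintro ⟨h0, h1, h⟩
      refine (Vale.Agent.P074.admissible_iff hd).1 ⟨h0, h1, ?_⟩
      intro K hK hc hi Y hY hYne
      obtain ⟨C, hC⟩ := h K hK hc hi Y hY hYne
      exact ⟨C, fun μ ν hμ hν T S hT hS => hC μ ν hμ.1 hν.1 hμ.2 hν.2 T S hT hS⟩
    · intro h
      obtain ⟨h0, h1, h2⟩ := (Vale.Agent.P074.admissible_iff hd).2 h
      refine ⟨h0, h1, ?_⟩
      intro K hK hc hi Y hY hYne
      obtain ⟨C, hC⟩ := h2 K hK hc hi Y hY hYne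
      exact ⟨C, fun μ ν hμ hν hμY hνY T S hT hS => hC μ ν ⟨hμ, hμY⟩ ⟨hν, hνY⟩ T S hT hS⟩
  · rintro α hα ⟨C, hC⟩
    exact Vale.Agent.P074.fixed_pair hd hα
      ⟨C, fun μ ν hμ hν T S hT hS => hC μ ν hμ.1 hν.1 hμ.2 hν.2 T S hT hS⟩

end Vale.Agent.Results.P074.B_ExactExponent
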